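import Mathlib
import Vale.Agent.Lib.P254.Final

open Vale.Agent.Lib.P254

namespace Vale.Agent.Results.P254.A_local_max

/-- Strict local maximality of the simplex for the isotropic constant: in every dimension there is
`ε > 0` such that every convex body `K` filling a fraction at least `1 - ε` of the volume of a
simplex `S` containing it has `L_K ≤ L_S`, with equality only if `K` is itself a simplex. -/
theorem result (n : ℕ) (hn : 0 < n) : ∃ ε > 0, ∀ K S : Set (Fin n → ℝ),
    IsConvexBody K → IsSimplex S → K ⊆ S → (1 - ε) * vol S ≤ vol K →
    isotropicConstant K ≤ isotropicConstant S ∧
      (isotropicConstant K = isotropicConstant S → IsSimplex K) :=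
  local_max n hn

end Vale.Agent.Results.P254.A_local_max
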